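import Vale.Agent.P333.H984.Ws

set_option autoImplicit false

/-!
P333: runs of the greedy algorithm without ties: the checks of one step, and the uniqueness of the
run up to the order of the family.
-/

namespace Vale.Agent.P333.H221

open Vale.Agent.P333.H984 (isPref isPref_iff noOv noOv_spec)

/-- the two lists are equal -/
def eqL (x y : List ℕ) : Bool := isPref x y && isPref y x

theorem eqL_iff (x y : List ℕ) : eqL x y = true ↔ x = y := by
  unfold eqL
  rw [Bool.and_eq_true, isPref_iff, isPref_iff]
  constructor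
  · rintro ⟨h5, h6⟩
    exact h5.eq_of_length (le_antisymm h5.length_le h6.length_le)
  · rintro rfl
    exact ⟨List.prefix_rfl, List.prefix_rfl⟩

/-- all overlaps of distinct members are less than `k + 1`, except that of `x` and `y`, which is at
most `k + 1` -/
def goodU (F : List (List ℕ)) (x y : List ℕ) (k : ℕ) : Bool :=
  F.all fun z => F.all fun w => eqL z w ||
    noOv (if (eqL z x && eqL w y) then k + 1 else k) w z z.length

theorem goodU_spec {F : List (List ℕ)} {x y : List ℕ} {k : ℕ} (h : goodU F x y k = true)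
    {z w : List ℕ} (hz : z ∈ F) (hw : w ∈ F) (hne : z ≠ w) {u : List ℕ} (h1 : u <:+ z)
    (h2 : u <+: w) : u.length ≤ k + 1 ∧ (¬ (z = x ∧ w = y) → u.length ≤ k) := by
  unfold goodU at h
  rw [List.all_eq_true] at h
  have h3 := h z hz
  rw [List.all_eq_true] at h3
  have h4 := h3 w hw
  rw [Bool.or_eq_true, eqL_iff] at h4
  rcases h4 with h5 | h5
  · exact absurd h5 hne
  · by_cases hc : z = x ∧ w = y
    · have hb : (eqL z x && eqL w y) = true := by
        rw [Bool.and_eq_true, eqL_iff, eqL_iff]
        exact hc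
      rw [if_pos hb] at h5
      exact ⟨noOv_spec _ w z _ rfl h5 u h1 h2, fun h => absurd hc h⟩
    · have hb : ¬ (eqL z x && eqL w y) = true := by
        rw [Bool.and_eq_true, eqL_iff, eqL_iff]
        exact hc
      rw [if_neg hb] at h5
      have := noOv_spec _ w z _ rfl h5 u h1 h2
      exact ⟨by omega, fun _ => this⟩

/-- the data of one step without ties, checked -/
structure St (L : List (List ℕ)) (x y m : List ℕ) (R : List (List ℕ)) (k : ℕ) : Prop where
  perm : L.Perm (x :: y :: R)
  nodup : (x :: y :: R).Nodup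
  le : k + 1 ≤ y.length
  ov : x.drop (x.length - (k + 1)) = y.take (k + 1)
  good : goodU (x :: y :: R) x y k = true
  merge : x.take (x.length - (k + 1)) ++ y = m

variable {L : List (List ℕ)} {x y m : List ℕ} {R : List (List ℕ)} {k : ℕ}

theorem St.ne (h : St L x y m R k) : x ≠ y := by
  intro he
  have := h.nodup
  rw [List.nodup_cons] at this
  exact this.1 (by rw [he]; exact List.mem_cons_self)

theorem St.isOverlap (h : St L x y m R k) : Greedy.IsOverlap x y (k + 1) := by
  refine ⟨⟨y.take (k + 1), ?_, ?_, ?_⟩, ?_⟩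
  · rw [List.length_take]
    exact min_eq_left h.le
  · rw [← h.ov]
    exact List.drop_suffix _ _
  · exact List.take_prefix _ _
  · intro l hl
    obtain ⟨u, hu, h1, h2⟩ := hl
    rw [← hu]
    exact (goodU_spec h.good List.mem_cons_self (List.mem_cons_of_mem _ List.mem_cons_self)
      h.ne h1 h2).1

/-- two members of a family without repetitions which stand in front of a permutation of it -/
theorem mem_ne {F : List (List ℕ)} (hnd : F.Nodup) {z w : List ℕ} {R' : List (List ℕ)}
    (hp : F.Perm (z :: w :: R')) : z ∈ F ∧ w ∈ F ∧ z ≠ w := by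
  have hnd' : (z :: w :: R').Nodup := hp.nodup_iff.1 hnd
  refine ⟨hp.mem_iff.2 List.mem_cons_self,
    hp.mem_iff.2 (List.mem_cons_of_mem _ List.mem_cons_self), ?_⟩
  intro h
  rw [List.nodup_cons] at hnd'
  exact hnd'.1 (by rw [h]; exact List.mem_cons_self)

theorem St.step (h : St L x y m R k) {F : List (List ℕ)} (hF : F.Perm L) :
    Greedy.Step F (m :: R) := by
  refine ⟨x, y, R, k + 1, hF.trans h.perm, h.isOverlap, ?_, by rw [h.merge]⟩
  intro z w R' l hp hl
  have hq : (x :: y :: R).Perm (z :: w :: R') := (hF.trans h.perm).symm.trans hp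
  obtain ⟨hz, hw, hne⟩ := mem_ne h.nodup hq
  obtain ⟨u, hu, h1, h2⟩ := hl.1
  rw [← hu]
  exact (goodU_spec h.good hz hw hne h1 h2).1

theorem St.uniq (h : St L x y m R k) {F F' : List (List ℕ)} (hF : F.Perm L)
    (hs : Greedy.Step F F') : F'.Perm (m :: R) := by
  obtain ⟨x', y', R', k', hp, hov, hmax, rfl⟩ := hs
  have hq : (x :: y :: R).Perm (x' :: y' :: R') := (hF.trans h.perm).symm.trans hp
  obtain ⟨hz, hw, hne⟩ := mem_ne h.nodup hq
  have hk : k + 1 ≤ k' := hmax x y R (k + 1) (hF.trans h.perm) h.isOverlap
  obtain ⟨u, hu, h1, h2⟩ := hov.1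
  have hg := goodU_spec h.good hz hw hne h1 h2
  have hxy : x' = x ∧ y' = y := by
    by_contra hc
    have := hg.2 hc
    omega
  obtain ⟨rfl, rfl⟩ := hxy
  have hk' : k' = k + 1 := by
    have := hg.1
    omega
  subst hk'
  rw [h.merge]
  exact ((List.perm_cons _).1 ((List.perm_cons _).1 hq)).symm.cons m

/-- every complete run which starts at a permutation of `L` ends with a string of length `n` -/
def Ends (L : List (List ℕ)) (n : ℕ) : Prop :=
  ∀ F : List (List ℕ), F.Perm L → ∀ t : List ℕ, Relation.ReflTransGen Greedy.Step F [t] →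
    t.length = n

theorem St.ends (h : St L x y m R k) {n : ℕ} (hn : Ends (m :: R) n) : Ends L n := by
  intro F hF t ht
  rcases ht.cases_head with he | ⟨F', hs, ht'⟩
  · have := (hF.trans h.perm).length_eq
    rw [he] at this
    simp at this
  · exact hn F' (h.uniq hF hs) t ht'

theorem ends_one (s : List ℕ) : Ends [s] s.length := by
  intro F hF t ht
  have hF' : F = [s] := List.perm_singleton.1 hF
  rcases ht.cases_head with he | ⟨F', hs, _⟩
  · rw [hF'] at he
    rw [List.cons.inj he |>.1]
  · obtain ⟨x', y', R', k', hp, _⟩ := hs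
    rw [hF'] at hp
    have := hp.length_eq
    simp at this

/-- the last step: two strings without overlap -/
theorem ends_two {a b : List ℕ} (hab : noOv 0 b a a.length = true)
    (hba : noOv 0 a b b.length = true) : Ends [a, b] (a.length + b.length) := by
  intro F hF t ht
  rcases ht.cases_head with he | ⟨F', hs, ht'⟩
  · rw [he] at hF
    have := hF.length_eq
    simp at this
  · obtain ⟨x', y', R', k', hp, hov, _, rfl⟩ := hs
    have hq : ([a, b] : List (List ℕ)).Perm (x' :: y' :: R') := hF.symm.trans hp
    have hR : R' = [] := by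
      have := hq.length_eq
      cases R' with
      | nil => rfl
      | cons c l => simp at this
    subst hR
    obtain ⟨u, hu, h1, h2⟩ := hov.1
    have hc : (x' = a ∧ y' = b) ∨ (x' = b ∧ y' = a) := by
      have h3 : x' ∈ ([a, b] : List (List ℕ)) := hq.mem_iff.2 List.mem_cons_self
      simp only [List.mem_cons, List.not_mem_nil, or_false] at h3
      rcases h3 with rfl | rfl
      · have h4 := (List.perm_cons _).1 hq
        exact Or.inl ⟨rfl, (List.cons.inj (List.perm_singleton.1 h4)).1.symm⟩
      · have h4 := (List.perm_cons _).1 ((List.Perm.swap x' a []).symm.trans hq |>.trans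
          (List.Perm.refl _))
        exact Or.inr ⟨rfl, (List.cons.inj (List.perm_singleton.1 h4)).1.symm⟩
    have hlen : t.length = x'.length + y'.length := by
      have hk0 : k' = 0 := by
        rcases hc with ⟨rfl, rfl⟩ | ⟨rfl, rfl⟩
        · have := noOv_spec 0 _ _ _ rfl hab u h1 h2
          omega
        · have := noOv_spec 0 _ _ _ rfl hba u h1 h2
          omega
      subst hk0
      have h5 := ends_one _ _ (List.Perm.refl _) t ht'
      rw [h5]
      simp
    rw [hlen]
    rcases hc with ⟨rfl, rfl⟩ | ⟨rfl, rfl⟩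
    · rfl
    · exact Nat.add_comm _ _

theorem step_two {a b : List ℕ} (hab : noOv 0 b a a.length = true)
    (hba : noOv 0 a b b.length = true) : Greedy.Step [a, b] [a ++ b] := by
  have h0 : Greedy.IsOverlap a b 0 := by
    refine ⟨⟨[], rfl, List.nil_suffix, List.nil_prefix⟩, ?_⟩
    intro l hl
    obtain ⟨u, hu, h1, h2⟩ := hl
    rw [← hu]
    exact noOv_spec 0 _ _ _ rfl hab u h1 h2
  refine ⟨a, b, [], 0, List.Perm.refl _, h0, ?_, by simp⟩
  intro z w R' l hq hl
  obtain ⟨u, hu, h1, h2⟩ := hl.1
  have h3 : z ∈ ([a, b] : List (List ℕ)) := hq.mem_iff.2 List.mem_cons_self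
  simp only [List.mem_cons, List.not_mem_nil, or_false] at h3
  rw [← hu]
  rcases h3 with rfl | rfl
  · have h4 := List.perm_singleton.1 ((List.perm_cons _).1 hq).symm
    obtain ⟨rfl, -⟩ := List.cons.inj h4
    exact noOv_spec 0 _ _ _ rfl hab u h1 h2
  · have h4 := List.perm_singleton.1 ((List.perm_cons _).1
      ((List.Perm.swap a z []).trans hq)).symm
    obtain ⟨rfl, -⟩ := List.cons.inj h4
    exact noOv_spec 0 _ _ _ rfl hba u h1 h2

/-- every output for the reduced family `S` has length `n` -/
theorem output_length {S : List (List ℕ)} (hS : Greedy.Reduced S S) {n : ℕ} (hn : Ends S n)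
    {t : List ℕ} (ht : Greedy.Output S t) : t.length = n := by
  obtain ⟨F, hF, hr⟩ := ht
  refine hn F ?_ t hr
  rw [List.perm_ext_iff_of_nodup hF.1 hS.1]
  intro s
  rw [hF.2 s]
  exact (hS.2 s).symm

end Vale.Agent.P333.H221
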